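import Vale.Agent.H65.GenK.AllBodies
import Vale.Agent.H76.Many
import Vale.Agent.H76.Coplanar
import Vale.Agent.H9.SymCyl.Final
import Vale.Agent.H65.SymAbs.Final
import Vale.Agent.H5.P243.TetraU
import Vale.Agent.H5.P243.TetraG

/-!
# Bang's half-area cylinder covering problem: the bounds proved here, in one statement

Let a convex body `K` of Euclidean 3-space be covered by `m` cylinders `B i + ℝ u i`
(arbitrary number `m`, arbitrary unit directions `u i`, arbitrary bases `B i ⊆ (u i)^⊥`). Write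

* `s` for the sum of the relative base areas `|B i| / |π_i K|`,
* `a` for the sum of the base areas `|B i|`,
* `A` for the least area of an orthogonal projection of `K` onto a plane.

Then

1. `s ≥ 1/3 + 10⁻³⁷` and `a ≥ (1/3 + 10⁻³⁷) A`, for every body and every covering;
2. `s ≥ (1 - m c ^ 3) / (3 (1 - c))` for every `c ∈ [0, 1)`, `s ≥ 1/3 + 2 / (9 √(3 m))` and
   `a ≥ (1/3 + 2 / (9 √(3 m))) A` (for `m = 2`, `c = 1/2` the first bound is `1/2`);
3. if all axes are parallel to one plane (every `u i` is orthogonal to one unit vector), then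
   `a ≥ A / 2`;
4. if `K` is centrally symmetric, then `a ≥ (27/50) A` and `s ≥ 5/12`;
5. if `K` is a tetrahedron with vertices `v₁, v₂, v₃, v₄`, then `s ≥ 317/900`; moreover `s ≥ 1/2`
   if every axis is parallel to a chord joining the edges `[v₁, v₂]` and `[v₃, v₄]`, and also if
   every axis is parallel to `α (v₃ - x) + β (y - v₄)` for some `α, β ≥ 0`, `α + β > 0` and
   `x, y ∈ [v₁, v₂]`.

The bound of Bezdek and Litvak is `1/3` in both forms; the conjectured bound is `1/2`.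

Areas are measured by the two-dimensional Euclidean Hausdorff measure of Mathlib (written
`μHE[2]` there), which on every plane is the planar Lebesgue measure. The orthogonal projection
onto `v^⊥` for a unit vector `v` is written `x ↦ x - ⟪x, v⟫ • v`.
-/

open MeasureTheory Set
open scoped ENNReal

namespace Vale.Agent.Results.P243.A_CombinedBounds

theorem result (m : ℕ)
    (K : Set (EuclideanSpace ℝ (Fin 3)))
    (hKconv : Convex ℝ K) (hKcomp : IsCompact K) (hKint : (interior K).Nonempty)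
    (u : Fin m → EuclideanSpace ℝ (Fin 3)) (hu : ∀ i, ‖u i‖ = 1)
    (B : Fin m → Set (EuclideanSpace ℝ (Fin 3)))
    (hB : ∀ i, ∀ x ∈ B i, inner ℝ x (u i) = 0)
    (hcov : K ⊆ ⋃ i, {x | ∃ b ∈ B i, ∃ t : ℝ, x = b + t • u i})
    (s a A : ℝ≥0∞)
    (hs : s = ∑ i, Measure.euclideanHausdorffMeasure 2 (B i) /
      Measure.euclideanHausdorffMeasure 2 ((fun x => x - inner ℝ x (u i) • u i) '' K))
    (ha : a = ∑ i, Measure.euclideanHausdorffMeasure 2 (B i))
    (hA : A = ⨅ v : EuclideanSpace ℝ (Fin 3), ⨅ _ : ‖v‖ = 1,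
      Measure.euclideanHausdorffMeasure 2 ((fun x => x - inner ℝ x v • v) '' K)) :
    (ENNReal.ofReal (1 / 3 + 1 / 10 ^ 37) ≤ s ∧ ENNReal.ofReal (1 / 3 + 1 / 10 ^ 37) * A ≤ a) ∧
    ((∀ c : ℝ, 0 ≤ c → c < 1 → ENNReal.ofReal ((1 - m * c ^ 3) / (3 * (1 - c))) ≤ s) ∧
      ENNReal.ofReal (1 / 3 + 2 / (9 * √(3 * m))) ≤ s ∧
      ENNReal.ofReal (1 / 3 + 2 / (9 * √(3 * m))) * A ≤ a) ∧
    ((∃ n : EuclideanSpace ℝ (Fin 3), ‖n‖ = 1 ∧ ∀ i, inner ℝ (u i) n = 0) → A / 2 ≤ a) ∧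
    ((∃ c : EuclideanSpace ℝ (Fin 3), ∀ x ∈ K, (2 : ℝ) • c - x ∈ K) →
      (27 / 50 : ℝ≥0∞) * A ≤ a ∧ (5 / 12 : ℝ≥0∞) ≤ s) ∧
    (∀ v₁ v₂ v₃ v₄ : EuclideanSpace ℝ (Fin 3), AffineIndependent ℝ ![v₁, v₂, v₃, v₄] →
      K = convexHull ℝ {v₁, v₂, v₃, v₄} →
      (317 / 900 : ℝ≥0∞) ≤ s ∧
      ((∀ i, ∃ x ∈ segment ℝ v₁ v₂, ∃ y ∈ segment ℝ v₃ v₄, ∃ c : ℝ, x - y = c • u i) →
        (1 / 2 : ℝ≥0∞) ≤ s) ∧
      ((∀ i, ∃ x ∈ segment ℝ v₁ v₂, ∃ y ∈ segment ℝ v₁ v₂, ∃ α β c : ℝ,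
          0 ≤ α ∧ 0 ≤ β ∧ 0 < α + β ∧ c • u i = α • (v₃ - x) + β • (y - v₄)) →
        (1 / 2 : ℝ≥0∞) ≤ s)) := by
  subst hs ha hA
  have hall := Vale.Agent.H65.GenK.all_bodies m K hKconv hKcomp hKint u hu B hB hcov
  have hmany := Vale.Agent.H76.many_cylinders m K hKconv hKcomp hKint u hu B hB hcov
  have hexp := Vale.Agent.H76.many_cylinders_explicit m K hKconv hKcomp hKint u hu B hB hcov
  refine ⟨⟨hall, Vale.Agent.H76.abs_of_rel Finset.univ _ _ _ _
      (fun i _ => iInf₂_le (u i) (hu i)) hall⟩,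
    ⟨hmany, hexp, Vale.Agent.H76.abs_of_rel Finset.univ _ _ _ _
      (fun i _ => iInf₂_le (u i) (hu i)) hexp⟩, ?_, ?_, ?_⟩
  · rintro ⟨n, hn, hperp⟩
    have hE : Module.finrank ℝ (EuclideanSpace ℝ (Fin 3)) = 3 := by simp
    exact Vale.Agent.H76.coplanar_axes_min hE K hKconv hKcomp hKint n hn u hu hperp B hB hcov
  · rintro ⟨c, hKsym⟩
    exact ⟨Vale.Agent.H65.SymAbs.symabs_final m K hKconv hKcomp hKint c hKsym u hu B hB hcov,
      (Vale.Agent.H9.SymCyl.sym_final m K hKconv hKcomp hKint c hKsym u hu B hB hcov).1⟩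
  · intro v₁ v₂ v₃ v₄ hT hK
    subst hK
    refine ⟨?_, fun hdir => ?_, fun hdir => ?_⟩
    · have h := Vale.Agent.H5.P243.tetra_all_cylinders m v₁ v₂ v₃ v₄ hT u hu B hB hcov
      have e : ENNReal.ofReal (317 / 900) = (317 / 900 : ℝ≥0∞) := by
        rw [ENNReal.ofReal_div_of_pos (by norm_num)]
        norm_num
      rw [e] at h
      exact h
    · exact Vale.Agent.H5.P243.tetra_cross_cylinders m v₁ v₂ v₃ v₄ hT u hu hdir B hB hcov
    · exact Vale.Agent.H5.P243.tetra_wedge_cylinders m v₁ v₂ v₃ v₄ hT u hu hdir B hB hcov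

end Vale.Agent.Results.P243.A_CombinedBounds
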