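import Vale.Agent.H65.GenK.AllBodies
import Vale.Agent.H76.Many

/-!
# Bang's cylinder covering problem: a bound above `1/3` for all convex bodies

Let a convex body `K` of Euclidean 3-space be covered by `m` cylinders `B i + ℝ u i`
(arbitrary number `m`, arbitrary unit directions `u i`, arbitrary bases `B i ⊆ (u i)^⊥`). Then the
relative base areas satisfy

  `∑ i, |B i| / |π_i K| ≥ 1/3 + 1/10^37`,

and hence the base areas satisfy `∑ i, |B i| ≥ (1/3 + 1/10^37) A_min(K)`, where `π_i K` is the
orthogonal projection of `K` onto `(u i)^⊥` and `A_min(K)` is the least area of an orthogonal
projection of `K` onto a plane. The constant does not depend on `K`, on `m`, or on the covering.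
The bound of Bezdek and Litvak is `1/3`.

Idea of the proof (helper15). The bound `1/3` comes from the inequality
`(length of a chord of K in direction u) * |π_u K| ≤ 3 vol K`. A chord for which this is almost an
equality has an end point `e` at which `K` has two supporting caps of small height with
non-parallel normals (a sharp point): in the plane through the chord and a suitable ray of the
shadow the section of `K` is almost a triangle, which gives two different supporting lines near
one end, and these lift to supporting planes by the Hahn-Banach theorem. Sharp points are rare:
disjoint boxes of a fixed volume sit at well separated sharp points, so a neighbourhood `N` of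
the sharp points has small volume. Giving the points of `N` a smaller weight shortens all almost
extremal chords by a definite amount while the total weight of `K` decreases less, and Fubini's
theorem along each cylinder gives the improved bound for bodies between two concentric balls of
radii `ρ` and `R`, with a constant depending on `ρ / R` only. Finally an affine map sending a
simplex of maximal volume in `K` to a fixed simplex makes `ρ / R ≥ 2/21`, and the relative base
areas are invariant under affine maps.

Areas are measured by the two-dimensional Euclidean Hausdorff measure of Mathlib (written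
`μHE[2]` there), which on every plane is the planar Lebesgue measure. The orthogonal projection
onto `u^⊥` for a unit vector `u` is written `x ↦ x - ⟪x, u⟫ • u`.
-/

open MeasureTheory Set
open scoped ENNReal

namespace Vale.Agent.Results.P243.C_AllBodies

theorem result (m : ℕ)
    (K : Set (EuclideanSpace ℝ (Fin 3)))
    (hKconv : Convex ℝ K) (hKcomp : IsCompact K) (hKint : (interior K).Nonempty)
    (u : Fin m → EuclideanSpace ℝ (Fin 3)) (hu : ∀ i, ‖u i‖ = 1)
    (B : Fin m → Set (EuclideanSpace ℝ (Fin 3)))
    (hB : ∀ i, ∀ x ∈ B i, inner ℝ x (u i) = 0)
    (hcov : K ⊆ ⋃ i, {x | ∃ b ∈ B i, ∃ t : ℝ, x = b + t • u i}) :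
    ENNReal.ofReal (1 / 3 + 1 / 10 ^ 37) ≤
        ∑ i, Measure.euclideanHausdorffMeasure 2 (B i) /
          Measure.euclideanHausdorffMeasure 2 ((fun x => x - inner ℝ x (u i) • u i) '' K) ∧
      ENNReal.ofReal (1 / 3 + 1 / 10 ^ 37) *
          (⨅ v : EuclideanSpace ℝ (Fin 3), ⨅ _ : ‖v‖ = 1,
            Measure.euclideanHausdorffMeasure 2 ((fun x => x - inner ℝ x v • v) '' K)) ≤
        ∑ i, Measure.euclideanHausdorffMeasure 2 (B i) := by
  have h := Vale.Agent.H65.GenK.all_bodies m K hKconv hKcomp hKint u hu B hB hcov
  exact ⟨h, Vale.Agent.H76.abs_of_rel Finset.univ _ _ _ _
    (fun i _ => iInf₂_le (u i) (hu i)) h⟩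

end Vale.Agent.Results.P243.C_AllBodies
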