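import Vale.Agent.H76.Coplanar
import Vale.Agent.H9.SymCyl.Final
import Vale.Agent.H65.SymAbs.Final

/-!
# Bang's half-area cylinder covering problem: the half-area inequality for centrally symmetric
bodies and for coverings whose axes are parallel to one plane

Let a convex body `K` of Euclidean 3-space be covered by `m` cylinders `B i + ℝ u i`
(arbitrary number `m`, arbitrary unit directions `u i`, arbitrary bases `B i ⊆ (u i)^⊥`). Write

* `s` for the sum of the relative base areas `|B i| / |π_i K|`,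
* `a` for the sum of the base areas `|B i|`,
* `A` for the least area of an orthogonal projection of `K` onto a plane.

Then

1. if `K` is centrally symmetric, then `a ≥ (27/50) A`, which is more than the half-area
   inequality `a ≥ A / 2` of the question, and `s ≥ 5/12`;
2. if all axes are parallel to one plane (every `u i` is orthogonal to a unit vector `n`), then
   `a ≥ A_n / 2`, where `A_n` is the least area of a projection of `K` along a unit vector
   orthogonal to `n`, and in particular `a ≥ A / 2`.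

Areas are measured by the two-dimensional Euclidean Hausdorff measure of Mathlib (written
`μHE[2]` there), which on every plane is the planar Lebesgue measure. The orthogonal projection
onto `v^⊥` for a unit vector `v` is written `x ↦ x - ⟪x, v⟫ • v`.
-/

open MeasureTheory Set
open scoped ENNReal

namespace Vale.Agent.Results.P243.C_BothHalfAreaCases

theorem result (m : ℕ)
    (K : Set (EuclideanSpace ℝ (Fin 3)))
    (hKconv : Convex ℝ K) (hKcomp : IsCompact K) (hKint : (interior K).Nonempty)
    (u : Fin m → EuclideanSpace ℝ (Fin 3)) (hu : ∀ i, ‖u i‖ = 1)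
    (B : Fin m → Set (EuclideanSpace ℝ (Fin 3)))
    (hB : ∀ i, ∀ x ∈ B i, inner ℝ x (u i) = 0)
    (hcov : K ⊆ ⋃ i, {x | ∃ b ∈ B i, ∃ t : ℝ, x = b + t • u i})
    (s a A : ℝ≥0∞)
    (hs : s = ∑ i, Measure.euclideanHausdorffMeasure 2 (B i) /
      Measure.euclideanHausdorffMeasure 2 ((fun x => x - inner ℝ x (u i) • u i) '' K))
    (ha : a = ∑ i, Measure.euclideanHausdorffMeasure 2 (B i))
    (hA : A = ⨅ v : EuclideanSpace ℝ (Fin 3), ⨅ _ : ‖v‖ = 1,
      Measure.euclideanHausdorffMeasure 2 ((fun x => x - inner ℝ x v • v) '' K)) :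
    ((∃ c : EuclideanSpace ℝ (Fin 3), ∀ x ∈ K, (2 : ℝ) • c - x ∈ K) →
      (27 / 50 : ℝ≥0∞) * A ≤ a ∧ (5 / 12 : ℝ≥0∞) ≤ s) ∧
    (∀ n : EuclideanSpace ℝ (Fin 3), ‖n‖ = 1 → (∀ i, inner ℝ (u i) n = 0) →
      (⨅ v : EuclideanSpace ℝ (Fin 3), ⨅ _ : ‖v‖ = 1 ∧ inner ℝ v n = 0,
          Measure.euclideanHausdorffMeasure 2 ((fun x => x - inner ℝ x v • v) '' K)) / 2 ≤ a ∧
        A / 2 ≤ a) := by
  subst hs ha hA
  refine ⟨?_, ?_⟩
  · rintro ⟨c, hKsym⟩
    exact ⟨Vale.Agent.H65.SymAbs.symabs_final m K hKconv hKcomp hKint c hKsym u hu B hB hcov,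
      (Vale.Agent.H9.SymCyl.sym_final m K hKconv hKcomp hKint c hKsym u hu B hB hcov).1⟩
  · intro n hn hperp
    have hE : Module.finrank ℝ (EuclideanSpace ℝ (Fin 3)) = 3 := by simp
    exact ⟨Vale.Agent.H76.coplanar_axes hE K hKconv hKcomp hKint n hn u hu hperp B hB hcov,
      Vale.Agent.H76.coplanar_axes_min hE K hKconv hKcomp hKint n hn u hu hperp B hB hcov⟩

end Vale.Agent.Results.P243.C_BothHalfAreaCases
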