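import Vale.Agent.H76.Coplanar

/-!
# Bang's half-area cylinder covering problem for cylinders with coplanar axes

Let a convex body `K` of Euclidean 3-space be covered by `m` cylinders `B i + ℝ u i`
(unit directions `u i`, arbitrary bases `B i ⊆ (u i)^⊥`), and suppose that all the axes are
parallel to one plane: every `u i` is orthogonal to a fixed unit vector `n`. Then the base areas
satisfy

  `∑ i, |B i| ≥ (1/2) inf { |π_v K| : v a unit vector orthogonal to n } ≥ (1/2) A_min(K)`,

where `π_v K` is the orthogonal projection of `K` onto `v^⊥` and `A_min(K)` is the least area of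
an orthogonal projection of `K` onto a plane. There is no restriction on the number of cylinders.
Any two directions are parallel to a common plane, so coverings by two cylinders are included,
and Bang's covering of the regular tetrahedron shows that the constant `1/2` is attained.

The proof slices `K` by the planes orthogonal to `n`. Each slice is a planar convex set covered
by generalized strips, so Bang's plank theorem (proved here from Bang's lemma) bounds the total
width of the strips from below by the minimal width of the slice; a concavity (tent) estimate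
for the widths of the slices and integration over the levels give the claim.

Areas are measured by the two-dimensional Euclidean Hausdorff measure of Mathlib (written
`μHE[2]` there), which on every plane is the planar Lebesgue measure. The orthogonal projection
onto `v^⊥` for a unit vector `v` is written `x ↦ x - ⟪x, v⟫ • v`.
-/

open MeasureTheory Set
open scoped ENNReal

namespace Vale.Agent.Results.P243.C_CoplanarAxes

theorem result (m : ℕ)
    (K : Set (EuclideanSpace ℝ (Fin 3)))
    (hKconv : Convex ℝ K) (hKcomp : IsCompact K) (hKint : (interior K).Nonempty)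
    (n : EuclideanSpace ℝ (Fin 3)) (hn : ‖n‖ = 1)
    (u : Fin m → EuclideanSpace ℝ (Fin 3)) (hu : ∀ i, ‖u i‖ = 1)
    (hperp : ∀ i, inner ℝ (u i) n = 0)
    (B : Fin m → Set (EuclideanSpace ℝ (Fin 3)))
    (hB : ∀ i, ∀ x ∈ B i, inner ℝ x (u i) = 0)
    (hcov : K ⊆ ⋃ i, {x | ∃ b ∈ B i, ∃ t : ℝ, x = b + t • u i}) :
    ((⨅ v : EuclideanSpace ℝ (Fin 3), ⨅ _ : ‖v‖ = 1 ∧ inner ℝ v n = 0,
          Measure.euclideanHausdorffMeasure 2 ((fun x => x - inner ℝ x v • v) '' K)) / 2 ≤
        (∑ i, Measure.euclideanHausdorffMeasure 2 (B i))) ∧
      ((⨅ v : EuclideanSpace ℝ (Fin 3), ⨅ _ : ‖v‖ = 1,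
          Measure.euclideanHausdorffMeasure 2 ((fun x => x - inner ℝ x v • v) '' K)) / 2 ≤
        (∑ i, Measure.euclideanHausdorffMeasure 2 (B i))) := by
  have hE : Module.finrank ℝ (EuclideanSpace ℝ (Fin 3)) = 3 := by simp
  exact ⟨Vale.Agent.H76.coplanar_axes hE K hKconv hKcomp hKint n hn u hu hperp B hB hcov,
    Vale.Agent.H76.coplanar_axes_min hE K hKconv hKcomp hKint n hn u hu hperp B hB hcov⟩

end Vale.Agent.Results.P243.C_CoplanarAxes
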