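import Vale.Agent.H9.SymCyl.Final
import Vale.Agent.H65.SymAbs.Final

/-!
# Bang's cylinder covering problem for centrally symmetric convex bodies

Let a convex body `K` of Euclidean 3-space be symmetric about a point `c` (for every `x ∈ K` the
reflected point `2 c - x` is in `K`), and let `K` be covered by `m` cylinders `B i + ℝ u i`
(arbitrary number `m`, arbitrary unit directions `u i`, arbitrary bases `B i ⊆ (u i)^⊥`). Then

* the base areas satisfy `∑ i, |B i| ≥ (27/50) A_min(K)`, where `A_min(K)` is the least area of an
  orthogonal projection of `K` onto a plane; as `27/50 > 1/2`, this is the half-area inequality of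
  Bang for every centrally symmetric convex body;
* the relative base areas satisfy `∑ i, |B i| / |π_i K| ≥ 5/12`.

The bound of Bezdek and Litvak for general convex bodies is `1/3` in both forms.

Proof of the first statement. Among the ellipsoids `T(ball)` inside `K` (after translating `c` to
the origin) take one maximising `|det T| / ‖T‖`, i.e. the least shadow area of the ellipsoid. The
ellipsoid carries the Archimedes weight `1 / √(1 - |T⁻¹ x|²)`, all of whose line integrals in a
direction `u` are equal to `π / |T⁻¹ u|`; hence the cylinders, which cover the ellipsoid, have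
total base area at least `π |det T| / ‖T‖`. At the optimum no first order change of `T` improves
the functional, and a separation argument in the space of operators gives two contact points of
the ellipsoid with the boundary of `K` whose supporting slabs `|⟪x, n⟫| ≤ 1`, `|⟪x, n'⟫| ≤ 1`
satisfy `‖T‖² ≤ 2 (|n|² |n'|² - ⟪n, n'⟫²) (det T)²`. The shadow of `K` along the common direction
of the two slabs is a subset of a parallelogram of area `4 / √(|n|² |n'|² - ⟪n, n'⟫²)`, which is
at most `4 √2 |det T| / ‖T‖`. So the total base area is at least `π / (4 √2) > 27/50` times a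
shadow area of `K`.

The second statement weights the shells `K \ λ K`.

Areas are measured by the two-dimensional Euclidean Hausdorff measure of Mathlib (written
`μHE[2]` there), which on every plane is the planar Lebesgue measure. The orthogonal projection
onto `u^⊥` for a unit vector `u` is written `x ↦ x - ⟪x, u⟫ • u`.
-/

open MeasureTheory Set
open scoped ENNReal

namespace Vale.Agent.Results.P243.C_SymmetricBodies

theorem result (m : ℕ)
    (K : Set (EuclideanSpace ℝ (Fin 3)))
    (hKconv : Convex ℝ K) (hKcomp : IsCompact K) (hKint : (interior K).Nonempty)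
    (c : EuclideanSpace ℝ (Fin 3)) (hKsym : ∀ x ∈ K, (2 : ℝ) • c - x ∈ K)
    (u : Fin m → EuclideanSpace ℝ (Fin 3)) (hu : ∀ i, ‖u i‖ = 1)
    (B : Fin m → Set (EuclideanSpace ℝ (Fin 3)))
    (hB : ∀ i, ∀ x ∈ B i, inner ℝ x (u i) = 0)
    (hcov : K ⊆ ⋃ i, {x | ∃ b ∈ B i, ∃ t : ℝ, x = b + t • u i}) :
    (27 / 50 : ℝ≥0∞) *
          (⨅ v : EuclideanSpace ℝ (Fin 3), ⨅ _ : ‖v‖ = 1,
            Measure.euclideanHausdorffMeasure 2 ((fun x => x - inner ℝ x v • v) '' K)) ≤
        ∑ i, Measure.euclideanHausdorffMeasure 2 (B i) ∧
      (5 / 12 : ℝ≥0∞) ≤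
        ∑ i, Measure.euclideanHausdorffMeasure 2 (B i) /
          Measure.euclideanHausdorffMeasure 2 ((fun x => x - inner ℝ x (u i) • u i) '' K) :=
  ⟨Vale.Agent.H65.SymAbs.symabs_final m K hKconv hKcomp hKint c hKsym u hu B hB hcov,
    (Vale.Agent.H9.SymCyl.sym_final m K hKconv hKcomp hKint c hKsym u hu B hB hcov).1⟩

end Vale.Agent.Results.P243.C_SymmetricBodies
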