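import Vale.Agent.H5.P243.TetraU
import Vale.Agent.H5.P243.TetraG

/-!
# Bang's cylinder covering problem for tetrahedra

Let `T` be a non-degenerate tetrahedron of Euclidean 3-space, the convex hull of four affinely
independent points `v₁, v₂, v₃, v₄`, and let `T` be covered by `m` cylinders `B i + ℝ u i`
(arbitrary number `m`, unit directions `u i`, arbitrary bases `B i ⊆ (u i)^⊥`). Write `s` for the
sum of the relative base areas `|B i| / |π_i T|`, where `π_i T` is the orthogonal projection of
`T` onto `(u i)^⊥`. Then

* (a) `s ≥ 317/900` for every such covering. The bound of Bezdek and Litvak is `1/3`; the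
  tetrahedron is the body of Bang's example, for which the conjectured value is `1/2`.
* (b) `s ≥ 1/2` if every axis `u i` is parallel to a segment joining a point of the edge
  `[v₁, v₂]` to a point of the opposite edge `[v₃, v₄]`. The directions of the four remaining
  edges are of this kind, so the two axes of Bang's covering (parallel to two opposite edges)
  are included, and `1/2` is attained.
* (c) `s ≥ 1/2` if every axis `u i` is parallel to a vector `α (v₃ - x) + β (y - v₄)` with
  `α, β ≥ 0` not both zero and `x, y` points of the edge `[v₁, v₂]`.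

Proof of (a): let `T'` be the chamfered tetrahedron, the set of points of `T` whose barycentric
weights have all six pair sums at least `1/20` and all four weights at most `9/10` (the
neighbourhoods of the edges and of the vertices are cut off). It has volume at least
`(1 - 49/1000) vol T`, while each chord of `T'` is at most `9/10` of the longest chord of `T` in
the same direction, and the longest chord of `T` in a direction `u` times the area of the shadow
of `T` along `u` is at most `3 vol T`. Hence a cylinder with base `B i` covers a part of `T'` of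
volume at most `(27/10) vol T` times its relative base area, and `(951/1000) / (27/10) = 317/900`.
Proofs of (b), (c): reduction to a planar piece of `T` (the midpoint parallelogram of the two
edges in (b), the triangle `v₁ v₂ (v₃ + v₄)/2` in (c)); see the files `TetraD` and `TetraG` of
`Vale.Agent.H5.P243`.

Areas are measured by the two-dimensional Euclidean Hausdorff measure of Mathlib (written
`μHE[2]` there), which on every plane is the planar Lebesgue measure. The orthogonal projection
onto `u^⊥` for a unit vector `u` is written `x ↦ x - ⟪x, u⟫ • u`.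
-/

open MeasureTheory Set
open scoped ENNReal

namespace Vale.Agent.Results.P243.C_Tetrahedra

theorem result (m : ℕ) (v₁ v₂ v₃ v₄ : EuclideanSpace ℝ (Fin 3))
    (hT : AffineIndependent ℝ ![v₁, v₂, v₃, v₄])
    (u : Fin m → EuclideanSpace ℝ (Fin 3)) (hu : ∀ i, ‖u i‖ = 1)
    (B : Fin m → Set (EuclideanSpace ℝ (Fin 3)))
    (hB : ∀ i, ∀ x ∈ B i, inner ℝ x (u i) = 0)
    (hcov : convexHull ℝ {v₁, v₂, v₃, v₄} ⊆ ⋃ i, {x | ∃ b ∈ B i, ∃ t : ℝ, x = b + t • u i}) :
    (317 / 900 : ℝ≥0∞) ≤
        ∑ i, Measure.euclideanHausdorffMeasure 2 (B i) /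
          Measure.euclideanHausdorffMeasure 2
            ((fun x => x - inner ℝ x (u i) • u i) '' convexHull ℝ {v₁, v₂, v₃, v₄}) ∧
      ((∀ i, ∃ x ∈ segment ℝ v₁ v₂, ∃ y ∈ segment ℝ v₃ v₄, ∃ c : ℝ, x - y = c • u i) →
        (1 / 2 : ℝ≥0∞) ≤
          ∑ i, Measure.euclideanHausdorffMeasure 2 (B i) /
            Measure.euclideanHausdorffMeasure 2
              ((fun x => x - inner ℝ x (u i) • u i) '' convexHull ℝ {v₁, v₂, v₃, v₄})) ∧
      ((∀ i, ∃ x ∈ segment ℝ v₁ v₂, ∃ y ∈ segment ℝ v₁ v₂, ∃ α β c : ℝ,
          0 ≤ α ∧ 0 ≤ β ∧ 0 < α + β ∧ c • u i = α • (v₃ - x) + β • (y - v₄)) →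
        (1 / 2 : ℝ≥0∞) ≤
          ∑ i, Measure.euclideanHausdorffMeasure 2 (B i) /
            Measure.euclideanHausdorffMeasure 2
              ((fun x => x - inner ℝ x (u i) • u i) '' convexHull ℝ {v₁, v₂, v₃, v₄})) := by
  refine ⟨?_, fun hdir => ?_, fun hdir => ?_⟩
  · have h := Vale.Agent.H5.P243.tetra_all_cylinders m v₁ v₂ v₃ v₄ hT u hu B hB hcov
    have e : ENNReal.ofReal (317 / 900) = (317 / 900 : ℝ≥0∞) := by
      rw [ENNReal.ofReal_div_of_pos (by norm_num)]
      norm_num
    rw [e] at h
    exact h
  · exact Vale.Agent.H5.P243.tetra_cross_cylinders m v₁ v₂ v₃ v₄ hT u hu hdir B hB hcov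
  · exact Vale.Agent.H5.P243.tetra_wedge_cylinders m v₁ v₂ v₃ v₄ hT u hu hdir B hB hcov

end Vale.Agent.Results.P243.C_Tetrahedra
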