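import Vale.Agent.H76.Many

/-!
# Bang's cylinder covering problem: a bound above `1/3` for every number of cylinders

Let a convex body `K` of Euclidean 3-space be covered by `m` cylinders `B i + ℝ u i`
(arbitrary unit directions `u i`, arbitrary bases `B i ⊆ (u i)^⊥`), and let `s` be the sum of the
relative base areas `|B i| / |π_i K|`. Then for every `c ∈ [0, 1)`

  `s ≥ (1 - m c ^ 3) / (3 (1 - c))`,

and in particular `s ≥ 1/3 + 2 / (9 √(3 m))`, so that the sum of the base areas is at least
`(1/3 + 2 / (9 √(3 m)))` times the least area of an orthogonal projection of `K` onto a plane. For `m = 2`, `c = 1/2` the first bound is the sharp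
value `1/2`; for `c = 0` it is the bound `1/3` of Bezdek and Litvak.

Areas are measured by the two-dimensional Euclidean Hausdorff measure of Mathlib (written
`μHE[2]` there), which on every plane is the planar Lebesgue measure. The orthogonal projection
onto `u^⊥` for a unit vector `u` is written `x ↦ x - ⟪x, u⟫ • u`.
-/

open MeasureTheory Set
open scoped ENNReal

namespace Vale.Agent.Results.P243.D_ManyCylinders

theorem result (m : ℕ)
    (K : Set (EuclideanSpace ℝ (Fin 3)))
    (hKconv : Convex ℝ K) (hKcomp : IsCompact K) (hKint : (interior K).Nonempty)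
    (u : Fin m → EuclideanSpace ℝ (Fin 3)) (hu : ∀ i, ‖u i‖ = 1)
    (B : Fin m → Set (EuclideanSpace ℝ (Fin 3)))
    (hB : ∀ i, ∀ x ∈ B i, inner ℝ x (u i) = 0)
    (hcov : K ⊆ ⋃ i, {x | ∃ b ∈ B i, ∃ t : ℝ, x = b + t • u i}) :
    (∀ c : ℝ, 0 ≤ c → c < 1 →
        ENNReal.ofReal ((1 - m * c ^ 3) / (3 * (1 - c))) ≤
          ∑ i, Measure.euclideanHausdorffMeasure 2 (B i) /
            Measure.euclideanHausdorffMeasure 2 ((fun x => x - inner ℝ x (u i) • u i) '' K)) ∧
      ENNReal.ofReal (1 / 3 + 2 / (9 * √(3 * m))) ≤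
        ∑ i, Measure.euclideanHausdorffMeasure 2 (B i) /
          Measure.euclideanHausdorffMeasure 2 ((fun x => x - inner ℝ x (u i) • u i) '' K) ∧
      ENNReal.ofReal (1 / 3 + 2 / (9 * √(3 * m))) *
          (⨅ v : EuclideanSpace ℝ (Fin 3), ⨅ _ : ‖v‖ = 1,
            Measure.euclideanHausdorffMeasure 2 ((fun x => x - inner ℝ x v • v) '' K)) ≤
        ∑ i, Measure.euclideanHausdorffMeasure 2 (B i) := by
  have h1 := Vale.Agent.H76.many_cylinders m K hKconv hKcomp hKint u hu B hB hcov
  have h2 := Vale.Agent.H76.many_cylinders_explicit m K hKconv hKcomp hKint u hu B hB hcov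
  exact ⟨h1, h2, Vale.Agent.H76.abs_of_rel Finset.univ _ _ _ _
    (fun i _ => iInf₂_le (u i) (hu i)) h2⟩

end Vale.Agent.Results.P243.D_ManyCylinders
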